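import Vale.Agent.Lib.P038.Sat.Sound
noncomputable section
namespace Vale.Agent.Lib.P038.Sat
def sh_0_0_f : Shape := ⟨0, 0, false, 1096, 89477571543250813700054342953671514656829423904430133537248760267131357513573759289028442457512497105086027464007240533115200407334808272039847555414521859838297623557995401438494419879940859959883412857440628117242513901572383835032833951272853964015018027383083614542329336315834491994589669726436180067228569430110262452877075738263182989166309933065938606938990815204044248329197290079026155132817308522375379894651148512820121815033815656699566343222504530110617845264191922108409919058633217069201777812319610569189135358007200200185622508898852752359691086403396836915725363383866300838254790982602097878371471510203770455350119244576241242953842267954947560221486883267539486768937613506147119906790903479153782289719690368294380272214481366957161784939083746909611668880980702208726717820200227907560645857344245666131993081322319250677786, 17198556662702106248222015808156150637281003659290256043329830426078692799705746154873694649867198818229066950479354522156181326822666856444347958703404050940935111206596893453956184672722996085101584468241315177087298911418511356496763006465861795371675546157767992225397591337787580636468698275972467510383790037260320025194661474908602381600862164993354033294027308839120924784653263117722158753470652266286394703016250164748640141685997641728⟩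
theorem sh_0_0_f_chk : sh_0_0_f.chk = true := by decide +kernel
end Vale.Agent.Lib.P038.Sat
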