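import Vale.Agent.Lib.P038.Sat.Sound
noncomputable section
namespace Vale.Agent.Lib.P038.Sat
def sh_1_0_f : Shape := ⟨1, 0, false, 1135, 277834885198752714626351896486958289403887217990093039508889841518130686438721872930099657398196190834517479230935879195697999782830586221693309472871422149282030305303750781696428368611802859722245455001692056610700454494427651162005475257766385433327651504905826825959074827522258470235560060014643604520063251957888181801763914440307071181180007306974487450056411445452358918835203223920082977097748404703281649822419382309271437426216413690596248307703438042555848857481538317613502659821365975172423515998624212414339280559322227660025468029667700680242935434393465525897407753096377531655229175943346608940018062654823048905825821351564553099936909417079272706027415764837957872159138835609470142386878358631337105360040767858884928476396994503600740294153683465109420976006358657827690543523746845238645361481942536070203223838400488281469533410506518318730784052854971201607772908612421762632728912078808368024156745447655475987664326680459867508858024034419463378066835620293514758775707283099227154701566097382662158812919021007751678444677055659024943092001175418081419852438274441915326479810171075848410305761542170950980501351194259204217617651771390928332410415055661000381498873494029449767291830891084444302674674521041448774885402, 144253116647757493173741358253228399243951590509922655531689918154278833710000073301622611373723962041429120752404223483062773253183532639330363207448401511077190669889888817442737421386950221483832638059371574933747242632941572508814668350819912264020821348430535281530026056763481427499360311559661249370026526754334426486893503396675084545731378337808488190752442153738487792564448765149211280441680846326684392372878397175943530353434078643953664⟩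
theorem sh_1_0_f_chk : sh_1_0_f.chk = true := by decide +kernel
end Vale.Agent.Lib.P038.Sat
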