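import Vale.Agent.Lib.P038.Sat.Sound
noncomputable section
namespace Vale.Agent.Lib.P038.Sat
def sh_2_0_f : Shape := ⟨2, 0, false, 1164, 193719114069377524496847252132794998830280586322451560498835511558250535495524113551769335237093845675671377629019092043386098646370719347816229305132219837803530059804943142905885445336875402718938552988673453631736286968211734351382359331441312639714436063013768545383809316451037836930754395891305209993937398151805922231518007913855560861411211519164926745864121403317827041582034797145985576643198258911430720067238763001900413186022334403999933040520346280216569811100287962335236370148308190016153729446742746232271877538120855570878515935964493058516995950675570119110939966569001371726687760497724368529811800286486179999260869160505953387552704065073225804769139127924997417547441031524466007715572359966880990496780254028573115706151852927238614890917122106216252579533013916737877443581118622914558897864597207778230851368646749126661979273833398859958680571510219186617564593974671156752040134555423420640119552900401292212399779375015653903753248535898879003966829799820633332733921556331618780213712397447946167537576564034294132358230760453147698207729917428365166879746340185925578723095832048909610461831732669379046421825312346270906145144982016733560811880750208443292044681367976052696908218759973381315134834527055784608504600228821703518598034274272133399487825417250193374697448260328763539061264314789134273711712663814151422082766456889288185859369827854203149272534427161001682025994894361873663405175124886098217890273562565539478148015181644735471030712761904232373870322407518537637344612671253346190130141206896666,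 147196977133612949118000273989991011785677006127324518354841668383814875490085614394573933626547415040370331203077695331826777851183970030190937353706950223946159648242524471660941707657013273730027471783110566712560298236651216528314446257220980657797832113668710416351124885110888464407641215996819025537554979186428158968906843755029910049394918064222823303052613813087764906930674333307875978969563055331982444395694326062963716343989288354914304⟩
theorem sh_2_0_f_chk : sh_2_0_f.chk = true := by decide +kernel
end Vale.Agent.Lib.P038.Sat
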