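import Vale.Agent.Lib.P038.Sat.Sound
noncomputable section
namespace Vale.Agent.Lib.P038.Sat
def sh_3_0_f : Shape := ⟨3, 0, false, 1194, 2311553156734377036046397513527364349446429446072707524032142416099031662854927064337368796862541425043072076073312162840901182568763999255064503983130312590216177509085647235794872916829802957132378077319870343634651592831243790386543932291639377857803132912437827053273357804684713331167706743261220218736906158575202950066293722190383283722930824787280899101645960433677726648160920014582038509795608372708477207793342942562082600919175391904293352888794842900963340230271772193834137986721880451551443940956196753691949599916964812122689822015690049963812462360041275656674242227837292896236944594277992468547899622747526471959543911141975991595145843520372441727986965725381878283520982556277910652122850136699070993877682281828611338078813039429387584997073298229213249445173845222623327640142698359265720091679391552304787331376195149424358752508251942307149773770179217286754145557306914716601271909397789792162598553763916438051817795275196777921373686707124990551374091949526748393620342917317279682634619851474174335650327801984896991235295066467819624089107236162445822710414204678800523026255527162475584440848666819015352300654837523584229285365979868155222721204582580031511451551017324679855346484626664189986607529093850353446094465096191093622745993092043301902543681245052402839999362059717288800165958896196690818872069401555625980641611414377187439827283660875672043885792202695536654931110599510398908985298943262494063184663486713572523934296090381346271954829802003067188800109239072520653668519886625359293184035070656373133178106793090141942441466396408503122643143354173393080493950725355945196579042701969619183389507279238711892061892788860447547397028208557883542251368006668717055601223406892135567591859968917076123452394430173270419393291758554574215552824386949726876436747426786145599439715244300317095751286618546202,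 150274669506664800465648128798031276020349170096740664453583695885252573018746637206675641600887144206421031946433069012599762461267506514509444475425169700943619080346834303266346222050576283169874890596014223121344781312411917398198104881711075036062844463293534183310595945548104467462524583383106651480885982618209607916621946624649444374304829152111816822413999169121383103404069506250322628965307469245477775804071554881855827736822817291706368⟩
theorem sh_3_0_f_chk : sh_3_0_f.chk = true := by decide +kernel
end Vale.Agent.Lib.P038.Sat
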