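import Vale.Agent.Lib.P038.Sat.Sound
noncomputable section
namespace Vale.Agent.Lib.P038.Sat
def sh_4_0_f : Shape := ⟨4, 0, false, 1226, 8113178490813363269138494886236569359945417162413546839767757446110294902169224695600916755100140932562266225728687363612050152684879347663466128586484945786186327673032121271797561881541160217345811602534134542075771312913759785724950240578230194455737902222014282921022764307770419786207872847050470597577026237232135777906695347567485677795873732408599516208679107386094843350936353508858731380124449101318391785527358108084920986779550340092668970696723982425405532335057239881915566225576582399776106131714255003297862177172703756698640778317174093666877245761039320008009622459987404337987777541143016042449466384806771751144292762148847223933007823051777339606348357150538865748608629407434230422715138423054518329071267466212084592909772875558269996795482619496887783878988890616670865549099650415511894578394082143504928776527544770771777650362851628536632242013519215980996806469659855720124886453474778637618090461051534951018414379832742917233629541388010274203378995338534853898728657585655310787639005812998584991373645177648823311142943486153500047333825168712764269731457544319836402427381733309667611049220775759281489487045789307792760507430901985176801996220227142103105763661733202080919595183560674420539043331826990596046877475999341021286167348691646789668930518211290302102872113505187549221145067835050401325044537028926175542303679837998980810550471117903286682875566522901564105149340127268475902793672261428319078577561970135703874571763770924857604051415353698859652456658465562295000373214138052208657379715965595168212983736959994323877028657976873117639672078134638168191330566982565591106398847774844937211021283350947255699951694273633802125205822685936393789598340166595105696613755854075778869354162139799229043844427962283029513080949608213152640575872428032074308888750353468666114119015780798095740293988065410210299511008434440687403724374803723337675948963166936496699275904220717437921683107814665818013874834787425623079963877638681609837478558163068450923755767839447767387112152065422763955184765088540017054667128155999807050397608829933446487487272683967099980491858590114058687862373490319188069375856969783229423654805305337012250,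 153619992984820073547109596774021101268460650411183132323490908104981274213596882394689570384712071302136164430459011606064462572539090910713719672279840251489253720351731079649496803397172262206694454213263523590864221021332179162578842143338953089932131919568386137120282082631398155673552006611809385693915708264123735220132158481821047350246738158439194077102769865393102534882385253083292553162778733058365288161820810174457109844588202395901952⟩
theorem sh_4_0_f_chk : sh_4_0_f.chk = true := by decide +kernel
end Vale.Agent.Lib.P038.Sat
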