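import Vale.Agent.Lib.P038.Sat.Sound
noncomputable section
namespace Vale.Agent.Lib.P038.Sat
def sh_5_0_f : Shape := ⟨5, 0, false, 1260, 837902357735573398170097944752361321900458220312906652438604528617457311833627518680191675650762463066421318049593233127783502405075578950079828581469336575810041429490573348773293062724860706445378642911925496889375996947182970381820402122314104585487183023004027573580161469964328141982848603905776109290216515971695168323984996853554567199937038342369212043349382395439217151696661196762006819138626246068684948482591206037098509636232594864921587876100332618859801721164740673449147917538827435270089367010794045854492698172003114926430728133759842023377118661161212543323670879721299417854334864794452482609056950319931994970327877869608579778218269979133775866218660605730358488344052903424972048617100303485440574605633515096190131438766246640891396399291460607724003452017632213226704037521909850852920238036894608583664912383872841964453476029609810116184498210247687375850454181704317604756597936625267288941569440825588271986644498059432780337532841486595086754046819174803805326476462354286913274995950827679260458604665643675387666916580427395496713265431042870647500298911255218914288173813041622541947174044351090033200118910154522200989621979994913869825074032444723380584308264016440021300308124399937465386917667524325975672492777204659557239281589808996409051576519654612015898085568063976696180673952426245606177976864555593054460279735548664747600034986646015056085692774981792501850922456527465125573103518805196136786849142708837298844159162894792616064211520582927602641453488559071964812276848837571348785547336613194763275841514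1215577247459345494872879276811065257425450290419328329492533002426428833483401824239652248364516997727124824087866309437682780368790589110409427841718713665233580870653173396519022206107355885865464739273110416221495061389444094719707329190679098232728677585156295614406174264409808566573725880853006853794736184236072687621801864063790205245152652148462399456606181395001917804016285587557587751842710966464069538928114468759391484609586052623880867439839200816180157236214291164263100170903406873400698140527840490188892042418928437461010464619345471609127300744631940445596384392517239078347913203789098761490979727935845038620008147184729997200439921658896219184939265180087221376425821462613472780133716399195294022412043640985805070685531805783406794000539455600173087731315369508527249241932170621684976878680811211125582158417668243731693034317528978670993627759636950837514511039072551616077984984471681072724052865769845702306140379516852831967783130957391028250, 157232947568078768362384677917960487530011447070651921964563305043000979074636349958615719978022196327515728655155523112220878184998723218803963381659640556170461558403003058475789773736403110678981865298077055946244116114751962396431388823442659938997323077441172621790430364193883568439001384079319942252886020869493114802894092951746810647770903007491627460878043459904885299470426632878451729659856666346463182831041005684052855116223214065229824⟩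
theorem sh_5_0_f_chk : sh_5_0_f.chk = true := by decide +kernel
end Vale.Agent.Lib.P038.Sat
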