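import Vale.Agent.Lib.P038.Sat.Sound
noncomputable section
namespace Vale.Agent.Lib.P038.Sat
def sh_6_0_f : Shape := ⟨6, 0, false, 1296, 25471007434392315237704219890870783226104132923173101178698448724554808837980029200059616460776321731839117648980925232576896488318507899908608768743686639818372624626068771652907906112094424427587942563179061410111324992152487711981403422226253457854063902270706774690140383838559647176453465719639721847980528921844787245558918844162959424737552339095518145612361069581186256437947890456206628573688054475814001687571987637884931152967497182669378161221416472706281020353379304896588479778812243412693954153060634929006363914846128660026991384624327701608442215118844609200544464182182478170069683866138567501004086819763820204581228314731523656631343130475681740352687262204426999425398255599123043918207324837286295650886205237579848893664996971694894638699972727157900103170909747534868826694344610766519295184121429695102040684765413008283113774205094631275444528504407916081282142288398432602024389222953258137089587127927998301951102895379548938603673857963265311653629376782329878727174340619450100717737438801278391823956382726897844265630952617037681774107245757959750192974218996133159307379246043288877239601880752258569455557463708767215202473282915577510850382644081444113613643923816006338944038072009347134280507910543747748062115635024769590712510651224424955684246078582611100800578577074192527451280176811956175308517186037449470965111878191368206754144202485667625771216658966724092655643259886796877730325428080737242480112939773119201053462017997682124423688978282841264356852811149161442766189600398544878022660732086531318076360449566324937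76175571332632551939425740416171929987787375747726744594239913403901003286190080086602270701262049714508948071788299746577665377568083788827653728592158965264313953763985845481475547259869491443506754776535016761705632525467370560095688065093698974722937382120949859362536896668861146399536304263197277993067778890538637213399435238460910104027753352104346983434463915841966015263885188592074744896627074934852373030397805967937287960408041506988656570765432501002187380267729047517036239109567538983817005953921004306968383044014923094731217019997879258628998637384510162796334169418825577466834184599857396454290336597186813958119463514305901108087610686597722300419226783033713569312145860095076764643524772209045792700522421294800692450660621927150589509931565823169953059758576202077743635278307569207450091248780812907368360146408754920037588212140628045907567512802187765727371041677208294039103586462627863503756078619594936395103329270776593297470516838303256287175423730395510308611717896677009707913326115120797175834940037030164711560397939738605560749448819234367626430211848534438087959988230746096712185627145680289851573790877166752009847793151695656444100954187612139383262055751673878519147640980968519160284797278128921929045024102560236681543081303561728540379541465344450989197937071810080385740853914271703066, 161113533256440884911473372229849434805001560075147033376800886699311687601865039898454090380817519282559724620522603531069009298646403440458104830262052714323279530215997376396403244334380872722767410298498220031490312004136295773718737092437629587790319866623621245316743359758232296479762949481202024282353864222223321148892269963733976186372983192246493269069732084436034244735660603362701521912351356914641432122625465247672240810688239714115584⟩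
theorem sh_6_0_f_chk : sh_6_0_f.chk = true := by decide +kernel
end Vale.Agent.Lib.P038.Sat
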